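import Vale.Agent.P317.Main

/-!
# P317: common bases of an arbitrary matroid and an (almost) paving matroid

If all sets of size at most `rank - k` are independent in `M₂` (for `k = 1`: `M₂` is paving), or
the same holds for the dual of `M₂`, then either `M₁` and `M₂` have no common basis or a fraction
of at least `(n + 1) ^ (-4 k)` of the bases of `M₁` are bases of `M₂`, for every matroid `M₁`.
-/

namespace Vale.Agent.Results.P317.PavingIntersection

/-- The number of bases of a matroid. -/
noncomputable def numBases {α : Type} (M : Matroid α) : ℕ := {B : Set α | M.IsBase B}.ncard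

/-- `N(M₁, M₂)`: the number of common bases. -/
noncomputable def numCommon {α : Type} (M₁ M₂ : Matroid α) : ℕ :=
  {B : Set α | M₁.IsBase B ∧ M₂.IsBase B}.ncard

/-- Every set of size at most `rank - k` is independent; for `k = 1` this says that the matroid is
a paving matroid. -/
def IsPaving {α : Type} (k : ℕ) (M : Matroid α) : Prop :=
  ∀ I : Set α, I.encard + k ≤ M.eRank → M.Indep I

/-- For every `k` and all matroids `M₁`, `M₂` on a finite set of `n` elements such that `M₂` or the
dual of `M₂` satisfies `IsPaving k`: if there is a common basis, then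
`numBases M₁ ≤ (n + 1) ^ (4 k) * numCommon M₁ M₂`. -/
theorem result :
    ∀ (k : ℕ) (α : Type) [Fintype α] (M₁ M₂ : Matroid α),
      M₁.E = Set.univ → M₂.E = Set.univ → (IsPaving k M₂ ∨ IsPaving k M₂✶) →
      numCommon M₁ M₂ ≠ 0 →
      numBases M₁ ≤ (Fintype.card α + 1) ^ (4 * k) * numCommon M₁ M₂ := by
  intro k α _ M₁ M₂ hE₁ hE₂ hk hne
  rcases hk with hk | hk
  · exact Vale.P317.main M₁ M₂ hk hne
  · have h := Vale.P317.main M₁✶ M₂✶ hk
      (by rw [Vale.P317.dual_ncard₂ M₁ M₂ hE₁ hE₂]; exact hne)
    rw [Vale.P317.dual_ncard M₁ hE₁, Vale.P317.dual_ncard₂ M₁ M₂ hE₁ hE₂] at h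
    exact h

end Vale.Agent.Results.P317.PavingIntersection
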